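import Mathlib
import Vale.Agent.P333.Bdl.B1

/-!
Amplifiers with three blocks per contact and expansion factor `p / q`.
-/

namespace Vale.Agent.P333.R2.H99

open Vale.Agent.P333 Finset

/-- The expansion property with factor `p / q` and additive error `ε k t`. -/
def ExpandsK (p q : ℕ) (k t β : ℕ) (ε : ℝ) (nxt : Equiv.Perm (Fin k × Fin t))
    (n1 : Equiv.Perm ((Fin k × Fin t) × Fin (β + 1))) : Prop :=
  ∀ (m : (Fin k × Fin t) × Fin (β + 1) → Bool) (x : Fin k × Fin t → Bool) (U : Finset (Fin k)),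
    (Finset.univ.filter (fun c => x c = true)).card + t * U.card ≤ k * t →
    (q : ℝ) * ((Finset.univ.filter (fun c => x c = true ∧ c.1 ∈ U)).card : ℝ)
      ≤ (p : ℝ) * (rises0 nxt m x + rises1 n1 m) + ε * (k * t)

/-- An amplifier with expansion factor `p / q`. -/
structure AmpK (p q : ℕ) (k t β : ℕ) (ε : ℝ) where
  e0 : Fin (k * t) ≃ Fin k × Fin t
  e1 : Fin (k * t * (β + 1)) ≃ (Fin k × Fin t) × Fin (β + 1)
  expands : ExpandsK p q k t β ε (rot e0) (rot e1)
  coinc : FewCoinc k t β ε (rot e0) (rot e1)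

/-- Amplifiers with three blocks per contact and factor `p / q` exist. -/
def AmpsExistK (p q : ℕ) : Prop :=
  ∀ ε : ℝ, 0 < ε → ∀ k : ℕ, 1 ≤ k → ∃ t0 : ℕ, ∀ t, t0 ≤ t → Nonempty (AmpK p q k t 2 ε)

end Vale.Agent.P333.R2.H99
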