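import Mathlib
import Vale.Agent.P333.R2.H99.AmpDef

/-!
From permutations to the cyclic orders of the amplifier, three blocks per contact.
-/

namespace Vale.Agent.P333.R2.H99

open Vale.Agent.P333 Finset

variable {k t : ℕ}

/-- Blocks in the order of the 0-chain. -/
def mkE3 (σ : Equiv.Perm (Fin (k * t))) : Fin (k * t * 3) ≃ (Fin k × Fin t) × Fin 3 :=
  finProdFinEquiv.symm.trans (Equiv.prodCongr (mkE0 σ) (Equiv.refl _))

/-- Order of the blocks in the 1-chain. -/
def mkE13 (σ : Equiv.Perm (Fin (k * t))) (τ : Equiv.Perm (Fin (k * t * 3))) :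
    Fin (k * t * 3) ≃ (Fin k × Fin t) × Fin 3 := τ.trans (mkE3 σ)

theorem mkE3_apply (σ : Equiv.Perm (Fin (k * t))) (p : Fin (k * t)) (j : Fin 3) :
    mkE3 σ (finProdFinEquiv (p, j)) = (mkE0 σ p, j) := by
  simp [mkE3]

theorem rises0_eq3 (σ : Equiv.Perm (Fin (k * t))) (m : (Fin k × Fin t) × Fin (2 + 1) → Bool)
    (x : Fin k × Fin t → Bool) :
    rises0 (rot (mkE0 σ)) m x = ∑ p, (rise (x (mkE0 σ p)) (m (mkE0 σ p, 0))
      + rise (m (mkE0 σ p, 0)) (m (mkE0 σ p, 1)) + rise (m (mkE0 σ p, 1)) (m (mkE0 σ p, 2))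
      + rise (m (mkE0 σ p, 2)) (x (mkE0 σ (finRotate _ p)))) := by
  unfold rises0
  rw [← Equiv.sum_comp (mkE0 σ)]
  apply sum_congr rfl
  intro p _
  rw [rotE_apply]
  rw [Fin.sum_univ_two]
  exact congrArg (· + rise (m (mkE0 σ p, 2)) (x (mkE0 σ (finRotate _ p))))
    (Nat.add_assoc _ _ _).symm

theorem rises1_eq3 (σ : Equiv.Perm (Fin (k * t))) (τ : Equiv.Perm (Fin (k * t * 3)))
    (m : (Fin k × Fin t) × Fin (2 + 1) → Bool) :
    rises1 (rot (mkE13 σ τ)) m
      = ∑ i, rise (m (mkE13 σ τ i)) (m (mkE13 σ τ (finRotate _ i))) := by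
  unfold rises1
  rw [← Equiv.sum_comp (mkE13 σ τ)]
  apply sum_congr rfl
  intro i _
  rw [rotE_apply]

theorem s0_mkE3 (σ : Equiv.Perm (Fin (k * t))) (y : Fin (k * t * 3)) :
    s0 (β := 2) (rot (mkE0 σ)) (mkE3 σ y) = mkE3 σ (finRotate _ y) := by
  obtain ⟨⟨p, j⟩, rfl⟩ := finProdFinEquiv.surjective y
  rw [mkE3_apply]
  have hK : 0 < k * t := lt_of_le_of_lt (Nat.zero_le _) p.2
  obtain ⟨n, hn⟩ : ∃ n, k * t * 3 = n + 1 := ⟨k * t * 3 - 1, by omega⟩
  have hrot : ∀ (N : ℕ) (y : Fin N), ((finRotate N y : Fin N) : ℕ) = if (y : ℕ) + 1 = N then 0 else (y : ℕ) + 1 := by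
    intro N y
    rcases Nat.eq_zero_or_pos N with rfl | hN
    · exact y.elim0
    obtain ⟨m, rfl⟩ : ∃ m, N = m + 1 := ⟨N - 1, by omega⟩
    rw [coe_finRotate]
    by_cases h : y = Fin.last m
    · rw [if_pos h, if_pos (by rw [h]; simp)]
    · rw [if_neg h, if_neg]
      intro h2
      apply h
      apply Fin.ext
      simp
      omega
  unfold s0
  by_cases hj : (j : ℕ) + 1 < 2 + 1
  · rw [dif_pos hj]
    have : finRotate (k * t * 3) (finProdFinEquiv (p, j))
        = finProdFinEquiv (p, ⟨(j : ℕ) + 1, hj⟩) := by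
      apply Fin.ext
      rw [hrot]
      have h1 : (finProdFinEquiv (p, j) : ℕ) = j + 3 * p := rfl
      have h2 : (finProdFinEquiv (p, (⟨(j : ℕ) + 1, hj⟩ : Fin 3)) : ℕ) = (j + 1) + 3 * p := rfl
      rw [h1, h2]
      have hp := p.2
      rw [if_neg (by omega)]
      omega
    rw [this, mkE3_apply]
  · rw [dif_neg hj]
    have hj3 : (j : ℕ) = 2 := by
      have := j.2
      omega
    rw [rotE_apply]
    have : finRotate (k * t * 3) (finProdFinEquiv (p, j))
        = finProdFinEquiv (finRotate (k * t) p, (0 : Fin 3)) := by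
      apply Fin.ext
      rw [hrot]
      have h1 : (finProdFinEquiv (p, j) : ℕ) = j + 3 * p := rfl
      have h2 : (finProdFinEquiv (finRotate (k * t) p, (0 : Fin 3)) : ℕ)
          = 0 + 3 * (finRotate (k * t) p : ℕ) := rfl
      rw [h1, h2, hrot, hj3]
      have hp := p.2
      by_cases h : (p : ℕ) + 1 = k * t
      · rw [if_pos h, if_pos (by omega)]
      · rw [if_neg h, if_neg (by omega)]
        omega
    rw [this, mkE3_apply]

theorem coinc_eq3 (σ : Equiv.Perm (Fin (k * t))) (τ : Equiv.Perm (Fin (k * t * 3))) :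
    (univ.filter (fun b => rot (mkE13 σ τ) b = s0 (β := 2) (rot (mkE0 σ)) b
      ∨ rot (mkE13 σ τ) (s0 (β := 2) (rot (mkE0 σ)) b) = b)).card ≤ coinc τ := by
  classical
  unfold coinc
  rw [filter_or]
  refine (card_union_le _ _).trans (Nat.add_le_add ?_ ?_)
  · rw [← card_map (mkE13 σ τ).toEmbedding]
    apply card_le_card
    intro b hb
    rw [mem_filter] at hb
    obtain ⟨i, rfl⟩ := (mkE13 σ τ).surjective b
    rw [mem_map]
    refine ⟨i, ?_, rfl⟩
    rw [mem_filter]
    refine ⟨mem_univ _, ?_⟩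
    have h := hb.2
    rw [rotE_apply] at h
    have h2 : mkE13 σ τ i = mkE3 σ (τ i) := rfl
    have h3 : mkE13 σ τ (finRotate _ i) = mkE3 σ (τ (finRotate _ i)) := rfl
    rw [h2, s0_mkE3, h3] at h
    exact (mkE3 σ).injective h
  · rw [← card_map (mkE13 σ τ).toEmbedding]
    apply card_le_card_of_injOn (fun b => s0 (β := 2) (rot (mkE0 σ)) b)
    · intro b hb
      have hb' := (mem_filter.mp hb).2
      obtain ⟨y, rfl⟩ := (mkE3 σ).surjective b
      rw [s0_mkE3] at hb'
      simp only [s0_mkE3]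
      rw [mem_coe, mem_map]
      refine ⟨τ.symm (finRotate _ y), ?_, ?_⟩
      · rw [mem_filter]
        refine ⟨mem_univ _, ?_⟩
        have h2 : mkE3 σ (finRotate _ y) = mkE13 σ τ (τ.symm (finRotate _ y)) := by
          simp only [finRotate_apply, mkE13, Equiv.trans_apply, Equiv.apply_symm_apply]
        rw [h2, rotE_apply] at hb'
        have h3 : mkE13 σ τ (finRotate _ (τ.symm (finRotate _ y)))
            = mkE3 σ (τ (finRotate _ (τ.symm (finRotate _ y)))) := rfl
        rw [h3] at hb'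
        have h4 := (mkE3 σ).injective hb'
        rw [h4]
        simp only [finRotate_apply, Equiv.apply_symm_apply]
      · simp only [mkE13, Equiv.trans_toEmbedding, Function.Embedding.mk_trans_mk, finRotate_apply, Function.Embedding.coeFn_mk, Function.comp_apply, Equiv.apply_symm_apply]
    · intro b _ b' _ h
      obtain ⟨y, rfl⟩ := (mkE3 σ).surjective b
      obtain ⟨y', rfl⟩ := (mkE3 σ).surjective b'
      simp only [s0_mkE3] at h
      have h1 := (mkE3 σ).injective h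
      have h2 := (finRotate _).injective h1
      rw [h2]

theorem coinc_of3 (σ : Equiv.Perm (Fin (k * t))) (τ : Equiv.Perm (Fin (k * t * 3)))
    {ε : ℝ} (h : (coinc τ : ℝ) ≤ ε * (k * t : ℕ)) :
    FewCoinc k t 2 ε (rot (mkE0 σ)) (rot (mkE13 σ τ)) := by
  unfold FewCoinc
  have h1 : (((univ.filter (fun b => rot (mkE13 σ τ) b = s0 (β := 2) (rot (mkE0 σ)) b
      ∨ rot (mkE13 σ τ) (s0 (β := 2) (rot (mkE0 σ)) b) = b)).card : ℕ) : ℝ) ≤ (coinc τ : ℝ) :=
    Nat.cast_le.mpr (coinc_eq3 σ τ)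
  refine le_trans ?_ (h1.trans (h.trans (le_of_eq (by push_cast; ring))))
  apply le_of_eq
  congr!

end Vale.Agent.P333.R2.H99
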