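import Mathlib
import Vale.Agent.P333.Bdl.B2

/-!
The plain property at small densities, three blocks per contact.
-/

namespace Vale.Agent.P333.R2.H99

open Vale.Agent.P333 Finset

/-- Rises between the three blocks of a cell. -/
def cellIn3 (g : Fin 3 → Bool) : ℕ := rise (g 0) (g 1) + rise (g 1) (g 2)

/-- Rises inside cells. -/
def sumIn3 (K : ℕ) (g : Fin K → Fin 3 → Bool) : ℕ := ∑ i, cellIn3 (g i)

/-- Cells whose last block is on. -/
def sumLast3 (K : ℕ) (g : Fin K → Fin 3 → Bool) : ℕ := ∑ i, (g i 2).toNat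

/-- Number of blocks that are on. -/
def ones3 (K : ℕ) (g : Fin K → Fin 3 → Bool) : ℕ := ∑ i, bones (g i)

/-- Violation of the plain property (all contacts count), factor `p / q`. -/
def badP (p q s K : ℕ) (g : Fin K → Fin 3 → Bool) (f : Fin (K * 3) → Bool) : Prop :=
  q * s + p * (sumIn3 K g + linRise (K * 3) f) ≤ q * sumLast3 K g

theorem badP_mono {p q p' q' s K : ℕ} {g : Fin K → Fin 3 → Bool} {f : Fin (K * 3) → Bool}
    (hq : 0 < q) (h : p' * q ≤ p * q') (hb : badP p q s K g f) : badP p' q' s K g f := by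
  unfold badP at hb ⊢
  have h1 := Nat.mul_le_mul_left q' hb
  have h2 := Nat.mul_le_mul_right (sumIn3 K g + linRise (K * 3) f) h
  have h3 : q * (q' * s + p' * (sumIn3 K g + linRise (K * 3) f)) ≤ q * (q' * sumLast3 K g) := by
    calc q * (q' * s + p' * (sumIn3 K g + linRise (K * 3) f))
        = q' * (q * s) + p' * q * (sumIn3 K g + linRise (K * 3) f) := by ring
      _ ≤ q' * (q * s) + p * q' * (sumIn3 K g + linRise (K * 3) f) := by omega
      _ = q' * (q * s + p * (sumIn3 K g + linRise (K * 3) f)) := by ring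
      _ ≤ q' * (q * sumLast3 K g) := h1
      _ = q * (q' * sumLast3 K g) := by ring
  exact Nat.le_of_mul_le_mul_left h3 hq

theorem sum_fun3 (F : (Fin 3 → Bool) → ℝ) :
    ∑ g : Fin 3 → Bool, F g = ∑ b0 : Bool, ∑ b1 : Bool, ∑ b2 : Bool, F ![b0, b1, b2] := by
  rw [sum_fun_succ]
  apply sum_congr rfl; intro b0 _
  rw [sum_fun_succ]
  apply sum_congr rfl; intro b1 _
  rw [sum_fun_succ]
  apply sum_congr rfl; intro b2 _
  rw [Fintype.sum_unique]
  rfl

theorem cell_sum3 (lam sig y : ℝ) :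
    ∑ c : Fin 3 → Bool, lam ^ cellIn3 c * sig ^ (c 2).toNat * y ^ bones c
      = 1 + y * (1 + lam + lam * sig) + y ^ 2 * (1 + 2 * (lam * sig)) + sig * y ^ 3 := by
  rw [sum_fun3]
  simp [cellIn3, rise, bones, Fin.sum_univ_succ]
  ring

theorem sum_cells3 (K : ℕ) (lam sig y : ℝ) :
    ∑ g : Fin K → Fin 3 → Bool, lam ^ sumIn3 K g * sig ^ sumLast3 K g * y ^ ones3 K g
      = (1 + y * (1 + lam + lam * sig) + y ^ 2 * (1 + 2 * (lam * sig)) + sig * y ^ 3) ^ K := by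
  rw [← cell_sum3, Fintype.sum_pow]
  apply sum_congr rfl
  intro g _
  unfold sumIn3 sumLast3 ones3
  rw [prod_mul_distrib, prod_mul_distrib, prod_pow_eq_pow_sum, prod_pow_eq_pow_sum,
    prod_pow_eq_pow_sum]

theorem sum_lin3 (n : ℕ) {lam y v R : ℝ} (hlam : 0 < lam) (hy : 0 < y) (hv : 1 ≤ v) (hR : 0 < R)
    (h0 : 1 + lam * y * v ≤ R) (h1 : 1 + y * v ≤ R * v) :
    ∑ f : Fin n → Bool, lam ^ linRise n f * y ^ bones f ≤ R ^ n := by
  have h := sum_wtA_le (fun _ (x : Bool) => x)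
    (h := fun q x => lam ^ rise q x * y ^ x.toNat)
    (by intro q b; positivity) (v := fun q => if q then v else 1)
    (by intro q; cases q <;> simp [hv]) hR.le
    (by
      intro q
      unfold stepA
      rw [Fintype.sum_bool]
      cases q
      · simp [rise]
        linarith only [h0]
      · simp [rise]
        linarith only [h1]) n false
  rw [if_neg (by decide), mul_one] at h
  refine le_trans (le_of_eq ?_) h
  apply sum_congr rfl
  intro l _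
  rw [wtA_mul (fun _ (x : Bool) => x) (fun q x => lam ^ rise q x) (fun _ x => y ^ x.toNat),
    wtA_pow _ lam (fun q x => rise q x), wtA_pow _ y (fun (_ : Bool) (x : Bool) => x.toNat),
    csA_const _ (fun x : Bool => x.toNat)]
  rfl

/-- Certificate for the plain property. -/
structure CertP (p q : ℕ) where
  lam : ℝ
  sig : ℝ
  y₀ : ℝ
  y₁ : ℝ
  R₀ : ℝ
  R₁ : ℝ
  v : ℝ
  lam_pos : 0 < lam
  sig_ge : 1 ≤ sig
  hs : 1 ≤ lam ^ q * sig ^ p
  y₀_pos : 0 < y₀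
  y₁_pos : 0 < y₁
  R₀_pos : 0 < R₀
  R₁_pos : 0 < R₁
  v_ge : 1 ≤ v
  step₀ : 1 + y₀ * (1 + lam + lam * sig) + y₀ ^ 2 * (1 + 2 * (lam * sig)) + sig * y₀ ^ 3 ≤ R₀
  stepf : 1 + lam * y₁ * v ≤ R₁
  stept : 1 + y₁ * v ≤ R₁ * v

namespace CertP

variable {p q : ℕ} (C : CertP p q)

theorem one_le {s K : ℕ} (hq : 0 < q) {g : Fin K → Fin 3 → Bool} {f : Fin (K * 3) → Bool}
    (hb : badP p q s K g f) :
    1 ≤ (1 / C.sig) ^ s * (C.lam ^ sumIn3 K g * C.sig ^ sumLast3 K g * C.lam ^ linRise (K * 3) f) := by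
  have hlam := C.lam_pos
  have hsig : 0 < C.sig := lt_of_lt_of_le one_pos C.sig_ge
  set A := sumIn3 K g + linRise (K * 3) f with hA
  have h1 : C.sig ^ (q * s + p * A) ≤ C.sig ^ (q * sumLast3 K g) :=
    pow_le_pow_right₀ C.sig_ge hb
  have h2 : (1 : ℝ) ≤ (C.lam ^ q * C.sig ^ p) ^ A := one_le_pow₀ C.hs
  have h3 : (C.sig ^ s) ^ q ≤ (C.lam ^ A * C.sig ^ sumLast3 K g) ^ q := by
    calc (C.sig ^ s) ^ q = C.sig ^ (q * s) * 1 := by rw [mul_one, ← pow_mul, mul_comm]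
      _ ≤ C.sig ^ (q * s) * (C.lam ^ q * C.sig ^ p) ^ A :=
          mul_le_mul_of_nonneg_left h2 (by positivity)
      _ = C.lam ^ (q * A) * C.sig ^ (q * s + p * A) := by
          rw [mul_pow, ← pow_mul, ← pow_mul, pow_add]; ring
      _ ≤ C.lam ^ (q * A) * C.sig ^ (q * sumLast3 K g) :=
          mul_le_mul_of_nonneg_left h1 (by positivity)
      _ = (C.lam ^ A * C.sig ^ sumLast3 K g) ^ q := by
          rw [mul_pow, ← pow_mul, ← pow_mul, mul_comm A q, mul_comm (sumLast3 K g) q]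
  have h4 : C.sig ^ s ≤ C.lam ^ A * C.sig ^ sumLast3 K g :=
    le_of_pow_le_pow_left₀ hq.ne' (by positivity) h3
  have h5 : (1 / C.sig) ^ s * C.sig ^ s = 1 := by
    rw [← mul_pow, one_div, inv_mul_cancel₀ hsig.ne', one_pow]
  calc (1 : ℝ) = (1 / C.sig) ^ s * C.sig ^ s := h5.symm
    _ ≤ (1 / C.sig) ^ s * (C.lam ^ A * C.sig ^ sumLast3 K g) :=
        mul_le_mul_of_nonneg_left h4 (by positivity)
    _ = _ := by rw [hA, pow_add]; ring

theorem card_le (hq : 0 < q) (s K u : ℕ)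
    (T : Finset ((Fin K → Fin 3 → Bool) × (Fin (K * 3) → Bool)))
    (hT : ∀ x ∈ T, ones3 K x.1 = u ∧ bones x.2 = u ∧ badP p q s K x.1 x.2) :
    (T.card : ℝ) ≤ (1 / C.sig) ^ s * (C.R₀ ^ K * C.R₁ ^ (K * 3) / (C.y₀ * C.y₁) ^ u) := by
  have hlam := C.lam_pos
  have hsig : 0 < C.sig := lt_of_lt_of_le one_pos C.sig_ge
  have hy₀ := C.y₀_pos
  have hy₁ := C.y₁_pos
  have hR₀ := C.R₀_pos
  have hR₁ := C.R₁_pos
  set f₀ : (Fin K → Fin 3 → Bool) → ℝ := fun g =>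
    C.lam ^ sumIn3 K g * C.sig ^ sumLast3 K g * C.y₀ ^ ones3 K g with hf₀
  set f₁ : (Fin (K * 3) → Bool) → ℝ := fun f => C.lam ^ linRise (K * 3) f * C.y₁ ^ bones f with hf₁
  set Q : ℝ := (1 / C.sig) ^ s / (C.y₀ * C.y₁) ^ u with hQ
  have hQ0 : 0 ≤ Q := by positivity
  have h1 : ∀ x ∈ T, (1 : ℝ) ≤ Q * (f₀ x.1 * f₁ x.2) := by
    intro x hx
    obtain ⟨hu, hf, hb⟩ := hT x hx
    refine (C.one_le hq hb).trans (le_of_eq ?_)
    simp only [hf₀, hf₁, hQ, hu, hf]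
    rw [mul_pow C.y₀]
    (clear * - hy₀ hy₁ hlam hsig; field_simp)
  have h2 : (T.card : ℝ) ≤ ∑ x ∈ T, Q * (f₀ x.1 * f₁ x.2) := by
    calc (T.card : ℝ) = ∑ x ∈ T, (1 : ℝ) := by simp
      _ ≤ _ := sum_le_sum h1
  have h3 : ∑ x ∈ T, Q * (f₀ x.1 * f₁ x.2)
      ≤ ∑ x : (Fin K → Fin 3 → Bool) × (Fin (K * 3) → Bool), Q * (f₀ x.1 * f₁ x.2) := by
    apply sum_le_univ_sum_of_nonneg
    intro x
    (clear * - hlam hy₀ hy₁ hsig; positivity)
  have h4 : ∑ x : (Fin K → Fin 3 → Bool) × (Fin (K * 3) → Bool), Q * (f₀ x.1 * f₁ x.2)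
      = Q * ((∑ l, f₀ l) * (∑ f, f₁ f)) := by
    rw [← mul_sum, Fintype.sum_prod_type, sum_mul_sum]
  have h6 : ∑ l, f₀ l ≤ C.R₀ ^ K := by
    simp only [hf₀]
    rw [sum_cells3]
    exact pow_le_pow_left₀ (by positivity) C.step₀ K
  have h5 : (∑ l, f₀ l) * (∑ f, f₁ f) ≤ C.R₀ ^ K * C.R₁ ^ (K * 3) := by
    apply mul_le_mul h6 (sum_lin3 (K * 3) hlam hy₁ C.v_ge hR₁ C.stepf C.stept)
    · apply sum_nonneg
      intro f _
      positivity
    · positivity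
  calc (T.card : ℝ) ≤ Q * ((∑ l, f₀ l) * (∑ f, f₁ f)) := by
        rw [← h4]; exact h2.trans h3
    _ ≤ Q * (C.R₀ ^ K * C.R₁ ^ (K * 3)) := mul_le_mul_of_nonneg_left h5 hQ0
    _ = _ := by
        rw [hQ]
        ring

end CertP

theorem works3 {K u : ℕ} (hK : 0 < K) (hu : u ≤ K * 3) {R₀ R₁ y : ℝ}
    (hR₀ : 0 < R₀) (hR₁ : 0 < R₁) (hy : 0 < y)
    (h : Real.log R₀ + 3 * Real.log R₁
      ≤ 3 * (Real.binEntropy ((u : ℝ) / (K * 3 : ℕ)) + (u : ℝ) / (K * 3 : ℕ) * Real.log y)) :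
    R₀ ^ K * R₁ ^ (K * 3) * ((u : ℝ) ^ u * ((K * 3 - u : ℕ) : ℝ) ^ (K * 3 - u))
      ≤ y ^ u * ((K * 3 : ℕ) : ℝ) ^ (K * 3) := by
  have hK0 : (0 : ℝ) < K := by exact_mod_cast hK
  have e2 := mul_binEntropy_div' (K * 3) u (by omega) hu
  have p3 := selfpow_pos u
  have p4 := selfpow_pos (K * 3 - u)
  have p6 := selfpow_pos (K * 3)
  have hN : ((K * 3 : ℕ) : ℝ) = K * 3 := by push_cast; ring
  rw [← Real.log_le_log_iff (by (clear * - hR₀ hR₁ p3 p4; positivity))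
      (by (clear * - hy p6; positivity)),
    Real.log_mul (by positivity) (by (clear * - p3 p4; positivity)),
    Real.log_mul (by positivity) (by positivity),
    Real.log_mul p3.ne' p4.ne', Real.log_mul (by positivity) p6.ne',
    Real.log_pow, Real.log_pow, Real.log_pow, Real.log_pow, Real.log_pow, Real.log_pow]
  have h2 : (K : ℝ) * (Real.log R₀ + 3 * Real.log R₁)
      ≤ K * (3 * (Real.binEntropy ((u : ℝ) / (K * 3 : ℕ)) + (u : ℝ) / (K * 3 : ℕ) * Real.log y)) :=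
    mul_le_mul_of_nonneg_left h hK0.le
  have h3 : (K : ℝ) * (3 * (Real.binEntropy ((u : ℝ) / (K * 3 : ℕ))
        + (u : ℝ) / (K * 3 : ℕ) * Real.log y))
      = ((K * 3 : ℕ) : ℝ) * Real.binEntropy ((u : ℝ) / (K * 3 : ℕ)) + u * Real.log y := by
    rw [hN]
    (clear * - hK; field_simp)
  rw [h3, e2] at h2
  rw [hN] at *
  linarith only [h2]

theorem CertP.weight_le {p q : ℕ} (C : CertP p q) (hq : 0 < q) (s K u : ℕ) (hK : 0 < K)
    (hu : u ≤ K * 3)
    (h : Real.log C.R₀ + 3 * Real.log C.R₁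
      ≤ 3 * (Real.binEntropy ((u : ℝ) / (K * 3 : ℕ))
        + (u : ℝ) / (K * 3 : ℕ) * Real.log (C.y₀ * C.y₁)))
    (T : Finset ((Fin K → Fin 3 → Bool) × (Fin (K * 3) → Bool)))
    (hT : ∀ x ∈ T, ones3 K x.1 = u ∧ bones x.2 = u ∧ badP p q s K x.1 x.2) :
    (T.card : ℝ) * (1 / ((K * 3).choose u : ℝ)) ≤ (1 / C.sig) ^ s * ((K * 3 : ℕ) + 1) := by
  have hsig : 0 < C.sig := lt_of_lt_of_le one_pos C.sig_ge
  have hy₀ := C.y₀_pos
  have hy₁ := C.y₁_pos
  have hR₀ := C.R₀_pos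
  have hR₁ := C.R₁_pos
  have h1 := C.card_le hq s K u T hT
  have c2 := inv_choose_le (K * 3) u hu
  have p2 := mul_pos (selfpow_pos u) (selfpow_pos (K * 3 - u))
  have p4 := selfpow_pos (K * 3)
  have hw := works3 (y := C.y₀ * C.y₁) hK hu hR₀ hR₁ (by positivity) h
  set E2 : ℝ := (u : ℝ) ^ u * ((K * 3 - u : ℕ) : ℝ) ^ (K * 3 - u) with hE2
  set X : ℝ := C.R₀ ^ K * C.R₁ ^ (K * 3) with hX
  set Y : ℝ := (C.y₀ * C.y₁) ^ u with hY
  have hX0 : 0 < X := by positivity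
  have hY0 : 0 < Y := by positivity
  have h2 : X / Y * (E2 / ((K * 3 : ℕ) : ℝ) ^ (K * 3)) ≤ 1 := by
    rw [div_mul_div_comm, div_le_one (by (clear * - hY0 p4; positivity))]
    exact hw
  calc (T.card : ℝ) * (1 / ((K * 3).choose u : ℝ))
      ≤ ((1 / C.sig) ^ s * (X / Y))
        * (((K * 3 : ℕ) + 1) * (E2 / ((K * 3 : ℕ) : ℝ) ^ (K * 3))) := by
        (clear * - h1 c2 hsig hR₀ hR₁ hy₀ hy₁; gcongr)
    _ = (1 / C.sig) ^ s * ((K * 3 : ℕ) + 1)
        * (X / Y * (E2 / ((K * 3 : ℕ) : ℝ) ^ (K * 3))) := by ring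
    _ ≤ (1 / C.sig) ^ s * ((K * 3 : ℕ) + 1) * 1 := by
        (clear * - h2 hsig hK; gcongr)
    _ = _ := by ring

/-- Certificate for densities between 1/500 and 1/200. -/
noncomputable def pn : CertP 51 50 where
  lam := 1 / 25525
  sig := 20922
  y₀ := 1891 / 500000
  y₁ := 899 / 1000
  R₀ := 10080517 / 10000000
  R₁ := 10003479 / 10000000
  v := 9876 / 1000
  lam_pos := by norm_num
  sig_ge := by norm_num
  hs := by norm_num
  y₀_pos := by norm_num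
  y₁_pos := by norm_num
  R₀_pos := by norm_num
  R₁_pos := by norm_num
  v_ge := by norm_num
  step₀ := by norm_num
  stepf := by norm_num
  stept := by norm_num

theorem pn_log (t : ℝ) (h0 : 1 / 500 ≤ t) (h1 : t ≤ 1 / 200) :
    Real.log pn.R₀ + 3 * Real.log pn.R₁
      ≤ 3 * (Real.binEntropy t + t * Real.log (pn.y₀ * pn.y₁)) := by
  have e3 := chk (C := 6269 / 6250) (Z := 1700009 / 500000000) (by norm_num) (by norm_num)
    (a := 1) (b := 500) (by norm_num) (by norm_num) (by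
      have k1 : ((6269 : ℝ) / 6250) ^ 500 = (((6269 : ℝ) / 6250) ^ 250) ^ 2 := by rw [← pow_mul]
      have k2 : ((500 - 1 : ℕ) : ℝ) ^ (500 - 1) = ((499 : ℝ) ^ 249) ^ 2 * 499 := by
        rw [← pow_mul, ← pow_succ]
        norm_num only
      have k3 : ((500 : ℕ) : ℝ) ^ 500 = ((500 : ℝ) ^ 250) ^ 2 := by
        rw [← pow_mul]
        norm_num only
      rw [k1, k2, k3]
      norm_num)
  have e4 := chk (C := 6269 / 6250) (Z := 1700009 / 500000000) (by norm_num) (by norm_num)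
    (a := 1) (b := 200) (by norm_num) (by norm_num) (by norm_num)
  have hy : pn.y₀ * pn.y₁ = 1700009 / 500000000 := by norm_num [pn]
  have g := chk_between (L := Real.log (6269 / 6250)) (Z := Real.log (1700009 / 500000000))
    (t0 := 1 / 500) (t1 := 1 / 200) (t := t) (by norm_num) (by norm_num) h0 h1
    (by norm_num at e3 ⊢; exact e3) (by norm_num at e4 ⊢; exact e4)
  have hR : Real.log (pn.R₀ * pn.R₁ ^ 3) ≤ Real.log ((6269 / 6250 : ℝ) ^ 3) :=
    Real.log_le_log (by norm_num [pn]) (by norm_num [pn])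
  rw [Real.log_mul (by norm_num [pn]) (by norm_num [pn]), Real.log_pow, Real.log_pow] at hR
  rw [hy]
  push_cast at hR
  linarith only [g, hR]

/-- Certificate at a small density `r ^ 2`. -/
noncomputable def ps (r : ℝ) (h0 : 0 < r) (h1 : r ≤ 1 / 20) : CertP 1 1 where
  lam := 2 / 5 * r ^ 3
  sig := 5 / (2 * r ^ 3)
  y₀ := 3 / 2 * r ^ 2
  y₁ := 17 / 20
  R₀ := 1 + (3 * r ^ 2 + 135 / 16 * r ^ 3 + 27 / 4 * r ^ 4 + 3 / 5 * r ^ 5)
  R₁ := 1 + 34 / 15 * r ^ 3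
  v := 20 / 3
  lam_pos := by positivity
  sig_ge := by
    rw [le_div_iff₀ (by positivity)]
    have : r ^ 3 ≤ (1 / 20) ^ 3 := pow_le_pow_left₀ h0.le h1 3
    linarith
  hs := by
    have hne : r ≠ 0 := h0.ne'
    apply le_of_eq
    field_simp
  y₀_pos := by positivity
  y₁_pos := by norm_num
  R₀_pos := by positivity
  R₁_pos := by positivity
  v_ge := by norm_num
  step₀ := by
    have hne : r ≠ 0 := h0.ne'
    apply le_of_eq
    field_simp
    ring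
  stepf := by
    apply le_of_eq
    ring
  stept := by
    have : 0 < r ^ 3 := by positivity
    nlinarith

theorem ps_log (r : ℝ) (h0 : 0 < r) (h1 : r ≤ 1 / 20) (h2 : r ^ 2 ≤ 1 / 500) :
    Real.log (ps r h0 h1).R₀ + 3 * Real.log (ps r h0 h1).R₁
      ≤ 3 * (Real.binEntropy (r ^ 2) + r ^ 2 * Real.log ((ps r h0 h1).y₀ * (ps r h0 h1).y₁)) := by
  simp only [ps]
  have hr2 : 0 < r ^ 2 := by positivity
  have a1 : Real.log (1 + (3 * r ^ 2 + 135 / 16 * r ^ 3 + 27 / 4 * r ^ 4 + 3 / 5 * r ^ 5))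
      ≤ 3 * r ^ 2 + 135 / 16 * r ^ 3 + 27 / 4 * r ^ 4 + 3 / 5 * r ^ 5 := by
    have := Real.log_le_sub_one_of_pos (show (0 : ℝ) < 1 + (3 * r ^ 2 + 135 / 16 * r ^ 3
      + 27 / 4 * r ^ 4 + 3 / 5 * r ^ 5) by positivity)
    linarith only [this]
  have a2 : Real.log (1 + 34 / 15 * r ^ 3) ≤ 34 / 15 * r ^ 3 := by
    have := Real.log_le_sub_one_of_pos (show (0 : ℝ) < 1 + 34 / 15 * r ^ 3 by positivity)
    linarith only [this]
  have a3 : Real.log (1 - r ^ 2) ≤ -r ^ 2 := by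
    have := Real.log_le_sub_one_of_pos (show (0 : ℝ) < 1 - r ^ 2 by linarith only [h2])
    linarith only [this]
  have a5 : (1 - r ^ 2) * Real.log (1 - r ^ 2) ≤ (1 - r ^ 2) * (-r ^ 2) :=
    mul_le_mul_of_nonneg_left a3 (by linarith only [h2])
  have a6 : 7 * Real.log 2 ≤ 20 * Real.log (51 / 40) := by
    have := Real.log_le_log (show (0 : ℝ) < 2 ^ 7 by norm_num)
      (show (2 : ℝ) ^ 7 ≤ (51 / 40) ^ 20 by norm_num)
    rw [Real.log_pow, Real.log_pow] at this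
    push_cast at this
    exact this
  have a4 := Real.log_two_gt_d9
  have a7 : (0.2425 : ℝ) ≤ Real.log (51 / 40) := by linarith only [a4, a6]
  have a8 : r ^ 2 * 0.2425 ≤ r ^ 2 * Real.log (51 / 40) := mul_le_mul_of_nonneg_left a7 hr2.le
  have e1 : (3 / 2 * r ^ 2 * (17 / 20) : ℝ) = 51 / 40 * r ^ 2 := by ring
  have hr3 : r ≤ 0.0448 := by
    by_contra h
    push Not at h
    nlinarith
  have b3 : r ^ 3 ≤ 0.0448 * r ^ 2 := by
    calc r ^ 3 = r * r ^ 2 := by ring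
      _ ≤ _ := mul_le_mul_of_nonneg_right hr3 hr2.le
  have b4 : r ^ 4 ≤ 1 / 500 * r ^ 2 := by
    calc r ^ 4 = r ^ 2 * r ^ 2 := by ring
      _ ≤ _ := mul_le_mul_of_nonneg_right h2 hr2.le
  have b5 : r ^ 5 ≤ 0.0448 * r ^ 2 := by
    calc r ^ 5 = r ^ 2 * r ^ 3 := by ring
      _ ≤ 1 * r ^ 3 := mul_le_mul_of_nonneg_right (by linarith only [h2]) (by positivity)
      _ ≤ _ := by linarith only [b3]
  have b6 : r ^ 2 * r ^ 2 ≤ 1 / 500 * r ^ 2 := mul_le_mul_of_nonneg_right h2 hr2.le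
  rw [e1, Real.log_mul (by norm_num) hr2.ne', Real.binEntropy, Real.log_inv, Real.log_inv]
  nlinarith only [a1, a2, a5, a8, b3, b4, b5, b6, hr2]

/-- The weight bound of the plain event up to density 1/200. -/
theorem plain_weight3 {p q : ℕ} (hq : 0 < q) (hpq : 51 * q ≤ p * 50) (s K u : ℕ) (hK : 0 < K)
    (hu0 : 0 < u) (hu : (u : ℝ) / (K * 3 : ℕ) ≤ 1 / 200)
    (T : Finset ((Fin K → Fin 3 → Bool) × (Fin (K * 3) → Bool)))
    (hT : ∀ x ∈ T, ones3 K x.1 = u ∧ bones x.2 = u ∧ badP p q s K x.1 x.2) :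
    (T.card : ℝ) * (1 / ((K * 3).choose u : ℝ)) ≤ (1 / 1000) ^ s * ((K * 3 : ℕ) + 1) := by
  have hN : (0 : ℝ) < (K * 3 : ℕ) := by
    have : 0 < K * 3 := by omega
    exact_mod_cast this
  have huN : u ≤ K * 3 := by
    have h1 : (u : ℝ) ≤ (K * 3 : ℕ) * (1 / 200) := by
      rw [div_le_iff₀ hN] at hu
      linarith only [hu]
    have h2 : (u : ℝ) ≤ (K * 3 : ℕ) := by linarith only [h1, hN]
    exact_mod_cast h2
  have ht0 : 0 < (u : ℝ) / (K * 3 : ℕ) := by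
    have : (0 : ℝ) < u := by exact_mod_cast hu0
    positivity
  have main : ∀ {a b : ℕ} (C : CertP a b), 0 < b → a * q ≤ p * b → 1000 ≤ C.sig →
      Real.log C.R₀ + 3 * Real.log C.R₁ ≤ 3 * (Real.binEntropy ((u : ℝ) / (K * 3 : ℕ))
        + (u : ℝ) / (K * 3 : ℕ) * Real.log (C.y₀ * C.y₁)) →
      (T.card : ℝ) * (1 / ((K * 3).choose u : ℝ)) ≤ (1 / 1000) ^ s * ((K * 3 : ℕ) + 1) := by
    intro a b C hb hab h1 h3
    refine (C.weight_le hb s K u hK huN h3 T (fun x hx => ?_)).trans ?_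
    · obtain ⟨h5, h6, h7⟩ := hT x hx
      exact ⟨h5, h6, badP_mono hq hab h7⟩
    · have := lt_of_lt_of_le one_pos C.sig_ge
      gcongr
  rcases le_total ((u : ℝ) / (K * 3 : ℕ)) (1 / 500) with h | h
  · set r := Real.sqrt ((u : ℝ) / (K * 3 : ℕ)) with hr
    have hr0 : 0 < r := Real.sqrt_pos.mpr ht0
    have hr2 : r ^ 2 = (u : ℝ) / (K * 3 : ℕ) := Real.sq_sqrt ht0.le
    have hr1 : r ≤ 1 / 20 := by
      by_contra hcon
      push Not at hcon
      nlinarith only [hr2, h, hcon]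
    rw [← hr2] at h
    refine main (ps r hr0 hr1) one_pos (by omega) ?_ ?_
    · simp only [ps]
      rw [le_div_iff₀ (by positivity)]
      have h4 : r ^ 3 ≤ 1 / 20 * r ^ 2 := by
        calc r ^ 3 = r * r ^ 2 := by ring
          _ ≤ _ := mul_le_mul_of_nonneg_right hr1 (by positivity)
      linarith only [h4, h]
    · rw [← hr2]
      exact ps_log r hr0 hr1 h
  · exact main pn (by norm_num) (by omega) (by norm_num [pn]) (pn_log _ h hu)

end Vale.Agent.P333.R2.H99
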