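import Mathlib
import Vale.Agent.P333.R2.H99.Plain
import Vale.Agent.P333.R2.H712.Det

/-!
The plain event: union bound over the order of the 1-chain, and the deterministic step.
-/

namespace Vale.Agent.P333.R2.H99

open Vale.Agent.P333 Finset

/-- The blocks of the cells, in the order of the 0-chain. -/
def flat3 {K : ℕ} (g : Fin K → Fin 3 → Bool) : Fin (K * 3) → Bool := fun i =>
  g (finProdFinEquiv.symm i).1 (finProdFinEquiv.symm i).2

theorem bones_flat3 {K : ℕ} (g : Fin K → Fin 3 → Bool) : bones (flat3 g) = ones3 K g := by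
  unfold bones ones3 flat3
  rw [Equiv.sum_comp finProdFinEquiv.symm (fun c : Fin K × Fin 3 => (g c.1 c.2).toNat),
    Fintype.sum_prod_type]
  rfl

/-- The plain event: some sparse state violates the plain property. -/
def evPl (s K : ℕ) (τ : Equiv.Perm (Fin (K * 3))) : Prop :=
  ∃ g : Fin K → Fin 3 → Bool, badP 1 1 s K g (fun i => flat3 g (τ i)) ∧
    (ones3 K g : ℝ) / (K * 3 : ℕ) ≤ 1 / 500

theorem sumLast3_le_ones3 (K : ℕ) (g : Fin K → Fin 3 → Bool) : sumLast3 K g ≤ ones3 K g := by
  unfold sumLast3 ones3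
  apply sum_le_sum
  intro i _
  unfold bones
  exact single_le_sum (f := fun j => (g i j).toNat) (fun _ _ => Nat.zero_le _) (mem_univ (2 : Fin 3))

/-- Weight bound of the plain event with factor one. -/
theorem plain_weight1 (s K u : ℕ) (hK : 0 < K) (hs : 0 < s)
    (hu : (u : ℝ) / (K * 3 : ℕ) ≤ 1 / 500)
    (T : Finset ((Fin K → Fin 3 → Bool) × (Fin (K * 3) → Bool)))
    (hT : ∀ x ∈ T, ones3 K x.1 = u ∧ bones x.2 = u ∧ badP 1 1 s K x.1 x.2) :
    (T.card : ℝ) * (1 / ((K * 3).choose u : ℝ)) ≤ (1 / 1000) ^ s * ((K * 3 : ℕ) + 1) := by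
  have hN : (0 : ℝ) < (K * 3 : ℕ) := by
    have : 0 < K * 3 := by omega
    exact_mod_cast this
  rcases T.eq_empty_or_nonempty with h0 | ⟨x0, hx0⟩
  · rw [h0]
    simp only [card_empty, Nat.cast_zero, zero_mul]
    positivity
  have hu0 : 0 < u := by
    obtain ⟨h1, h2, h3⟩ := hT x0 hx0
    unfold badP at h3
    have h4 := sumLast3_le_ones3 K x0.1
    omega
  have huN : u ≤ K * 3 := by
    have h1 : (u : ℝ) ≤ (K * 3 : ℕ) * (1 / 500) := by
      rw [div_le_iff₀ hN] at hu
      linarith only [hu]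
    have h2 : (u : ℝ) ≤ (K * 3 : ℕ) := by linarith only [h1, hN]
    exact_mod_cast h2
  have ht0 : 0 < (u : ℝ) / (K * 3 : ℕ) := by
    have : (0 : ℝ) < u := by exact_mod_cast hu0
    positivity
  have h : (u : ℝ) / (K * 3 : ℕ) ≤ 1 / 500 := hu
  set r := Real.sqrt ((u : ℝ) / (K * 3 : ℕ)) with hr
  have hr0 : 0 < r := Real.sqrt_pos.mpr ht0
  have hr2 : r ^ 2 = (u : ℝ) / (K * 3 : ℕ) := Real.sq_sqrt ht0.le
  have hr1 : r ≤ 1 / 20 := by
    by_contra hcon
    push Not at hcon
    nlinarith only [hr2, h, hcon]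
  rw [← hr2] at h
  have hsig : 1000 ≤ (ps r hr0 hr1).sig := by
    simp only [ps]
    rw [le_div_iff₀ (by positivity)]
    have h4 : r ^ 3 ≤ 1 / 20 * r ^ 2 := by
      calc r ^ 3 = r * r ^ 2 := by ring
        _ ≤ _ := mul_le_mul_of_nonneg_right hr1 (by positivity)
    linarith only [h4, h]
  refine ((ps r hr0 hr1).weight_le one_pos s K u hK huN ?_ T hT).trans ?_
  · rw [← hr2]
    exact ps_log r hr0 hr1 h
  · have := lt_of_lt_of_le one_pos (ps r hr0 hr1).sig_ge
    gcongr

open Classical in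
theorem card_evPl_le {s K : ℕ} (hK : 0 < K) (hs : 0 < s) :
    (((univ : Finset (Equiv.Perm (Fin (K * 3)))).filter (fun τ => evPl s K τ)).card : ℝ)
      ≤ ((K * 3).factorial : ℝ) * (((K * 3 : ℕ) + 1) * ((1 / 1000) ^ s * ((K * 3 : ℕ) + 1))) := by
  let Bad : Finset ((Fin K → Fin 3 → Bool) × (Fin (K * 3) → Bool)) :=
    univ.filter (fun x => ones3 K x.1 = bones x.2 ∧ badP 1 1 s K x.1 x.2 ∧
      (ones3 K x.1 : ℝ) / (K * 3 : ℕ) ≤ 1 / 500)
  have hsub : (univ : Finset (Equiv.Perm (Fin (K * 3)))).filter (fun τ => evPl s K τ) ⊆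
      Bad.biUnion (fun x => (univ : Finset (Equiv.Perm (Fin (K * 3)))).filter
        (fun τ => (fun i => flat3 x.1 (τ i)) = x.2)) := by
    intro τ hτ
    rw [mem_filter] at hτ
    obtain ⟨g, hg, hd⟩ := hτ.2
    rw [mem_biUnion]
    refine ⟨(g, fun i => flat3 g (τ i)), ?_, ?_⟩
    · simp only [Bad, mem_filter, mem_univ, true_and]
      refine ⟨?_, hg, hd⟩
      rw [bones_perm, bones_flat3]
    · simp only [mem_filter, mem_univ, true_and]
  have h1 : ((univ : Finset (Equiv.Perm (Fin (K * 3)))).filter (fun τ => evPl s K τ)).card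
      ≤ ∑ x ∈ Bad, ((bones x.2).factorial * ((K * 3) - bones x.2).factorial) := by
    refine (card_le_card hsub).trans (card_biUnion_le.trans ?_)
    apply sum_le_sum
    intro x _
    exact card_comp_eq_le (flat3 x.1) x.2
  have h2 : (((univ : Finset (Equiv.Perm (Fin (K * 3)))).filter (fun τ => evPl s K τ)).card : ℝ)
      ≤ ∑ x ∈ Bad, ((K * 3).factorial : ℝ) * (1 / ((K * 3).choose (bones x.2) : ℝ)) := by
    have h3 : (((univ : Finset (Equiv.Perm (Fin (K * 3)))).filter (fun τ => evPl s K τ)).card : ℝ)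
      ≤ ((∑ x ∈ Bad, ((bones x.2).factorial * ((K * 3) - bones x.2).factorial) : ℕ) : ℝ) := by
      exact_mod_cast h1
    refine h3.trans (le_of_eq ?_)
    rw [Nat.cast_sum]
    apply sum_congr rfl
    intro x _
    have e2 := Nat.choose_mul_factorial_mul_factorial (bones_le x.2)
    have p2 : (0 : ℝ) < (K * 3).choose (bones x.2) := by
      exact_mod_cast Nat.choose_pos (bones_le x.2)
    have e2' : ((K * 3).choose (bones x.2) : ℝ) * (bones x.2).factorial
        * ((K * 3) - bones x.2).factorial = (K * 3).factorial := by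
      exact_mod_cast e2
    rw [← e2']
    push_cast
    (clear * - p2; field_simp)
  refine h2.trans ?_
  rw [← mul_sum]
  apply mul_le_mul_of_nonneg_left _ (by positivity)
  have h4 : ∑ x ∈ Bad, (1 / ((K * 3).choose (bones x.2) : ℝ))
      = ∑ u ∈ range ((K * 3) + 1), ∑ x ∈ Bad with bones x.2 = u,
        (1 / ((K * 3).choose (bones x.2) : ℝ)) := by
    rw [sum_fiberwise_of_maps_to]
    intro x _
    rw [mem_range]
    have := bones_le x.2
    omega
  rw [h4]
  calc ∑ u ∈ range ((K * 3) + 1), ∑ x ∈ Bad with bones x.2 = u,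
        (1 / ((K * 3).choose (bones x.2) : ℝ))
      ≤ ∑ _u ∈ range ((K * 3) + 1), ((1 / 1000 : ℝ) ^ s * ((K * 3 : ℕ) + 1)) := by
        apply sum_le_sum
        intro u hu
        rw [mem_range] at hu
        have e1 : ∑ x ∈ Bad with bones x.2 = u, (1 / ((K * 3).choose (bones x.2) : ℝ))
            = ((Bad.filter (fun x => bones x.2 = u)).card : ℝ) * (1 / ((K * 3).choose u : ℝ)) := by
          rw [sum_congr rfl (g := fun _ => (1 / ((K * 3).choose u : ℝ))) (by
            intro x hx
            rw [(mem_filter.mp hx).2])]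
          rw [sum_const, nsmul_eq_mul]
        rw [e1]
        rcases (Bad.filter (fun x => bones x.2 = u)).eq_empty_or_nonempty with h0 | ⟨x0, hx0⟩
        · rw [h0]
          simp only [card_empty, Nat.cast_zero, zero_mul]
          positivity
        · have h5 := mem_filter.mp hx0
          have h6 := h5.1
          simp only [Bad, mem_filter, mem_univ, true_and] at h6
          have h7 := h6.2.2
          rw [h6.1, h5.2] at h7
          apply plain_weight1 s K u hK hs h7
          intro x hx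
          have h8 := mem_filter.mp hx
          have h9 := h8.1
          simp only [Bad, mem_filter, mem_univ, true_and] at h9
          exact ⟨h9.1.trans h8.2, h8.2, h9.2.1⟩
    _ = (((K * 3) : ℕ) + 1) * ((1 / 1000) ^ s * ((K * 3 : ℕ) + 1)) := by
        rw [sum_const, card_range, nsmul_eq_mul]
        push_cast
        ring

/-- The deterministic step. -/
theorem plain_of {p q s K : ℕ} (hq : 0 < q) (hqp : q ≤ p) {τ : Equiv.Perm (Fin (K * 3))}
    (h : ¬ evPl s K τ) (x : Fin K → Bool) (g : Fin (K * 3) → Bool)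
    (hd : (bones g : ℝ) / (K * 3 : ℕ) ≤ 1 / 500)
    (hv : p * (Ref.R0 (Ref.mk (fun _ => false) x g) + Ref.R1 (fun i => g (τ i))) + q * (s + 1)
      ≤ q * bones x) : False := by
  apply h
  set g' : Fin K → Fin 3 → Bool := fun i j => g (finProdFinEquiv (i, j)) with hg'
  have hfl : flat3 g' = g := by
    funext i
    simp only [flat3, hg', Prod.mk.eta, Equiv.apply_symm_apply]
  refine ⟨g', ?_, ?_⟩
  · rw [hfl]
    unfold badP
    have e3 : ∑ i, rise (x (finRotate K i)) (g' (finRotate K i) 0)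
        = ∑ i, rise (x i) (g' i 0) :=
      Equiv.sum_comp (finRotate K) (fun i => rise (x i) (g' i 0))
    have e4 : ∑ i, (x (finRotate K i)).toNat = bones x :=
      Equiv.sum_comp (finRotate K) (fun i => (x i).toNat)
    have h1 : ∑ i, (x (finRotate K i)).toNat
        ≤ ∑ i, (rise (g' i 2) (x (finRotate K i)) + rise (x (finRotate K i)) (g' (finRotate K i) 0)
          + (g' i 2).toNat) := by
      apply sum_le_sum
      intro i _
      exact contact_plain _ _ _
    rw [sum_add_distrib, sum_add_distrib, e3, e4] at h1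
    have h2 : Ref.R0 (Ref.mk (fun _ => false) x g) = ∑ i, rise (x i) (g' i 0) + sumIn3 K g'
        + ∑ i, rise (g' i 2) (x (finRotate K i)) := by
      unfold Ref.R0 sumIn3
      rw [← sum_add_distrib, ← sum_add_distrib]
      apply sum_congr rfl
      intro i _
      simp only [Ref.mk, Ref.cellR, cellIn3, hg']
      omega
    have h4 : linRise (K * 3) (fun i => g (τ i))
        ≤ ∑ i, rise (g (τ i)) (g (τ (finRotate _ i))) + 1 := linRise_le (fun i => g (τ i))
    have h5 : q * (Ref.R0 (Ref.mk (fun _ => false) x g) + Ref.R1 (fun i => g (τ i))) + q * (s + 1)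
        ≤ q * bones x :=
      (Nat.add_le_add_right (Nat.mul_le_mul_right _ hqp) _).trans hv
    rw [← Nat.mul_add] at h5
    have h6 := Nat.le_of_mul_le_mul_left h5 hq
    have h7 : Ref.R1 (fun i => g (τ i)) = ∑ i, rise (g (τ i)) (g (τ (finRotate _ i))) := rfl
    unfold sumLast3
    omega
  · have : ones3 K g' = bones g := by rw [← bones_flat3, hfl]
    rw [this]
    exact hd

end Vale.Agent.P333.R2.H99
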