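import Mathlib
import Vale.Agent.P333.R2.H99.PlainEv
import Vale.Agent.P333.R2.H99.Chain3
import Vale.Agent.P333.R2.H712.Count

/-!
Existence of amplifiers with three blocks per contact from the weight bound in the bulk.
-/

namespace Vale.Agent.P333.R2.H99

open Vale.Agent.P333 Finset

theorem bones_mark {k t : ℕ} (U : Finset (Fin k)) :
    bones (Ref.markV (t := t) U) = t * U.card := by
  have := Ref.bones_markV (t := t) (Equiv.refl _) U
  exact this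

open Classical in
theorem card_PB_le {p q s k t : ℕ} {r C γ : ℝ} {d : ℕ} (hC : 0 < C) (hγ : 0 < γ)
    (hB : ∀ (s K w n a : ℕ), 0 < K → w ≤ K → K ≤ 2 * w →
      n ≤ K * 3 → a ≤ n → r ≤ (n : ℝ) / (K * 3 : ℕ) → (n : ℝ) / (K * 3 : ℕ) ≤ 1 - r →
      ∀ T : Finset ((Fin K → Ref.Cell) × (Fin (K * 3) → Bool)),
      (∀ t ∈ T, Ref.wOnes t.1 = w ∧ Ref.bOnes t.1 = n ∧ bones t.2 = n ∧ (Ref.setA t.1).card = a ∧
        Ref.bad p q s t.1 t.2) →
      ∑ t ∈ T, Ref.wgt K w n a (Ref.setB t.2).card ≤ C * γ ^ s * ((K + 1 : ℕ) : ℝ) ^ d)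
    (hkt : 0 < k * t) (U : Finset (Fin k)) (hU : k ≤ 2 * U.card) :
    (((univ : Finset (Equiv.Perm (Fin (k * t)) × Equiv.Perm (Fin (k * t * 3)))).filter
      (fun π => Ref.ev (k * t) (Ref.PB p q s r) (Ref.markV U) π)).card : ℝ)
      ≤ ((k * t).factorial : ℝ) * ((k * t * 3).factorial : ℝ)
        * ((((k * t * 3 : ℕ) : ℝ) + 1) ^ 2 * (C * γ ^ s * ((k * t + 1 : ℕ) : ℝ) ^ d)) := by
  apply Ref.ev_card_le
  intro n a T hn ha hT
  rcases T.eq_empty_or_nonempty with h0 | ⟨t0, ht0⟩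
  · rw [h0, sum_empty]
    positivity
  · have h1 := (hT t0 ht0).2.2.2.2
    have h2 := (hT t0 ht0).2.2.1
    have h3 := h1.2.1
    have h4 := h1.2.2
    rw [h2] at h3 h4
    apply hB s (k * t) (bones (Ref.markV U)) n a hkt (bones_le _) _ hn ha h3 h4 T
    · intro x hx
      obtain ⟨a1, a2, a3, a4, a5⟩ := hT x hx
      exact ⟨a1, a2, a3, a4, a5.1⟩
    · rw [bones_mark]
      calc k * t ≤ 2 * U.card * t := Nat.mul_le_mul_right t hU
        _ = 2 * (t * U.card) := by ring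

theorem exists_perms3 {p q s s' k t : ℕ} {r C γ : ℝ} {d : ℕ} (hC : 0 < C) (hγ : 0 < γ)
    (hB : ∀ (s K w n a : ℕ), 0 < K → w ≤ K → K ≤ 2 * w →
      n ≤ K * 3 → a ≤ n → r ≤ (n : ℝ) / (K * 3 : ℕ) → (n : ℝ) / (K * 3 : ℕ) ≤ 1 - r →
      ∀ T : Finset ((Fin K → Ref.Cell) × (Fin (K * 3) → Bool)),
      (∀ t ∈ T, Ref.wOnes t.1 = w ∧ Ref.bOnes t.1 = n ∧ bones t.2 = n ∧ (Ref.setA t.1).card = a ∧
        Ref.bad p q s t.1 t.2) →
      ∑ t ∈ T, Ref.wgt K w n a (Ref.setB t.2).card ≤ C * γ ^ s * ((K + 1 : ℕ) : ℝ) ^ d)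
    (hkt : 0 < k * t) (hkt2 : 2 ≤ k * t) (hs : 0 < s') (ε : ℝ) (hε : 0 < ε)
    (hsmall : 2 ^ k * ((((k * t * 3 : ℕ) : ℝ) + 1) ^ 2 * (C * γ ^ s * ((k * t + 1 : ℕ) : ℝ) ^ d))
      + (((k * t * 3 : ℕ) : ℝ) + 1) * ((1 / 1000) ^ s' * (((k * t * 3 : ℕ) : ℝ) + 1))
      + 3 / (ε * (k * t : ℕ)) < 1) :
    ∃ (σ : Equiv.Perm (Fin (k * t))) (τ : Equiv.Perm (Fin (k * t * 3))),
      (∀ U : Finset (Fin k), k ≤ 2 * U.card →
        ¬ Ref.ev (k * t) (Ref.PB p q s r) (Ref.markV U) (σ, τ)) ∧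
      ¬ evPl s' (k * t) τ ∧ (coinc τ : ℝ) ≤ ε * (k * t : ℕ) := by
  classical
  by_contra hcon
  push Not at hcon
  set Q : ℝ := (((k * t * 3 : ℕ) : ℝ) + 1) ^ 2 * (C * γ ^ s * ((k * t + 1 : ℕ) : ℝ) ^ d) with hQ
  set Q' : ℝ := (((k * t * 3 : ℕ) : ℝ) + 1) * ((1 / 1000) ^ s' * (((k * t * 3 : ℕ) : ℝ) + 1))
    with hQ'
  have hQ0 : 0 ≤ Q := by positivity
  set Us : Finset (Finset (Fin k)) := univ.filter (fun U => k ≤ 2 * U.card) with hUs
  have hsub : (univ : Finset (Equiv.Perm (Fin (k * t)) × Equiv.Perm (Fin (k * t * 3)))) ⊆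
      (Us.biUnion (fun U =>
        univ.filter (fun π => Ref.ev (k * t) (Ref.PB p q s r) (Ref.markV U) π)))
      ∪ ((univ : Finset (Equiv.Perm (Fin (k * t)))) ×ˢ
        (univ.filter (fun τ : Equiv.Perm (Fin (k * t * 3)) => evPl s' (k * t) τ))
      ∪ (univ : Finset (Equiv.Perm (Fin (k * t)))) ×ˢ
        (univ.filter (fun τ : Equiv.Perm (Fin (k * t * 3)) => ε * (k * t : ℕ) < coinc τ))) := by
    intro π _
    rw [mem_union, mem_union, mem_biUnion, mem_product, mem_product]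
    by_cases h1 : ∃ U : Finset (Fin k), k ≤ 2 * U.card ∧
        Ref.ev (k * t) (Ref.PB p q s r) (Ref.markV U) π
    · obtain ⟨U, hU, hU2⟩ := h1
      refine Or.inl ⟨U, ?_, ?_⟩
      · rw [hUs, mem_filter]; exact ⟨mem_univ _, hU⟩
      · rw [mem_filter]; exact ⟨mem_univ _, hU2⟩
    · push Not at h1
      by_cases h2 : evPl s' (k * t) π.2
      · exact Or.inr (Or.inl ⟨mem_univ _, by rw [mem_filter]; exact ⟨mem_univ _, h2⟩⟩)
      · refine Or.inr (Or.inr ⟨mem_univ _, ?_⟩)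
        rw [mem_filter]
        exact ⟨mem_univ _, hcon π.1 π.2 h1 h2⟩
  have hcard := (card_le_card hsub).trans ((card_union_le _ _).trans
    (Nat.add_le_add_left (card_union_le _ _) _))
  rw [card_univ, Fintype.card_prod, Fintype.card_perm, Fintype.card_perm, Fintype.card_fin,
    Fintype.card_fin, card_product, card_product, card_univ, Fintype.card_perm,
    Fintype.card_fin] at hcard
  have hb := (card_biUnion_le (s := Us) (t := fun U =>
        (univ : Finset (Equiv.Perm (Fin (k * t)) × Equiv.Perm (Fin (k * t * 3)))).filter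
          (fun π => Ref.ev (k * t) (Ref.PB p q s r) (Ref.markV U) π)))
  have hF : (0 : ℝ) ≤ ((k * t).factorial : ℝ) * ((k * t * 3).factorial : ℝ) := by positivity
  have h1 : ((∑ U ∈ Us, ((univ : Finset (Equiv.Perm (Fin (k * t))
      × Equiv.Perm (Fin (k * t * 3)))).filter
        (fun π => Ref.ev (k * t) (Ref.PB p q s r) (Ref.markV U) π)).card : ℕ) : ℝ)
      ≤ 2 ^ k * (((k * t).factorial : ℝ) * ((k * t * 3).factorial : ℝ) * Q) := by
    rw [Nat.cast_sum]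
    calc _ ≤ ∑ _U ∈ Us, (((k * t).factorial : ℝ) * ((k * t * 3).factorial : ℝ) * Q) := by
          apply sum_le_sum
          intro U hU
          rw [hUs, mem_filter] at hU
          exact card_PB_le hC hγ hB hkt U hU.2
      _ = (Us.card : ℝ) * (((k * t).factorial : ℝ) * ((k * t * 3).factorial : ℝ) * Q) := by
          rw [sum_const, nsmul_eq_mul]
      _ ≤ 2 ^ k * (((k * t).factorial : ℝ) * ((k * t * 3).factorial : ℝ) * Q) := by
          apply mul_le_mul_of_nonneg_right _ (mul_nonneg hF hQ0)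
          have h2 : Us.card ≤ 2 ^ k := by
            calc Us.card ≤ (univ : Finset (Finset (Fin k))).card := card_le_card (filter_subset _ _)
              _ = 2 ^ k := by rw [card_univ, Fintype.card_finset, Fintype.card_fin]
          exact_mod_cast h2
  have h2 := card_evPl_le (s := s') hkt hs
  have h3 := card_coinc_le (n := k * t * 3) (by omega) (L := ε * (k * t : ℕ))
    (by have : (0 : ℝ) < (k * t : ℕ) := by exact_mod_cast hkt
        (clear * - hε this; positivity))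
  have hcard' : ((k * t).factorial : ℝ) * ((k * t * 3).factorial : ℝ)
      ≤ 2 ^ k * (((k * t).factorial : ℝ) * ((k * t * 3).factorial : ℝ) * Q)
        + (((k * t).factorial : ℝ) * (((k * t * 3).factorial : ℝ) * Q')
        + ((k * t).factorial : ℝ) * (((k * t * 3).factorial : ℝ) * (3 / (ε * (k * t : ℕ))))) := by
    have h4 : (((k * t).factorial * (k * t * 3).factorial : ℕ) : ℝ) ≤ _ := Nat.cast_le.mpr hcard
    rw [Nat.cast_add, Nat.cast_add, Nat.cast_mul, Nat.cast_mul, Nat.cast_mul] at h4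
    have h5 : (0 : ℝ) ≤ ((k * t).factorial : ℝ) := by positivity
    have h6 := mul_le_mul_of_nonneg_left h3 h5
    have h8 := mul_le_mul_of_nonneg_left h2 h5
    have h7 : ((((Us).biUnion (fun U =>
        (univ : Finset (Equiv.Perm (Fin (k * t)) × Equiv.Perm (Fin (k * t * 3)))).filter
          (fun π => Ref.ev (k * t) (Ref.PB p q s r) (Ref.markV U) π))).card : ℕ) : ℝ) ≤ _ :=
      (Nat.cast_le.mpr hb).trans h1
    rw [← hQ'] at h8
    linarith only [h8, h4, h6, h7]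
  have hf : (0 : ℝ) < ((k * t).factorial : ℝ) * ((k * t * 3).factorial : ℝ) := by
    have h8 : (0 : ℝ) < ((k * t).factorial : ℝ) := by exact_mod_cast Nat.factorial_pos _
    have h9 : (0 : ℝ) < ((k * t * 3).factorial : ℝ) := by exact_mod_cast Nat.factorial_pos _
    positivity
  have h8 : ((k * t).factorial : ℝ) * ((k * t * 3).factorial : ℝ) * 1
      ≤ ((k * t).factorial : ℝ) * ((k * t * 3).factorial : ℝ)
        * (2 ^ k * Q + Q' + 3 / (ε * (k * t : ℕ))) := by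
    rw [mul_one]
    refine hcard'.trans (le_of_eq ?_)
    ring
  have h9 := le_of_mul_le_mul_left h8 hf
  linarith only [hsmall, h9]

/-- Polynomial times exponential decay. -/
theorem decay3 (A γ : ℝ) (hγ0 : 0 < γ) (hγ1 : γ < 1) (d : ℕ) : ∃ s0 : ℕ, ∀ s, s0 ≤ s →
    A * ((s + 1 : ℕ) : ℝ) ^ d * γ ^ s < 1 / 4 := by
  have h := tendsto_pow_const_mul_const_pow_of_abs_lt_one d (r := γ)
    (by rw [abs_of_pos hγ0]; exact hγ1)
  have h2 : Filter.Tendsto (fun s : ℕ => A * γ⁻¹ * (((s + 1 : ℕ) : ℝ) ^ d * γ ^ (s + 1)))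
      Filter.atTop (nhds (A * γ⁻¹ * 0)) :=
    ((Filter.tendsto_add_atTop_iff_nat (f := fun n : ℕ => ((n : ℝ) ^ d * γ ^ n)) 1).mpr h).const_mul _
  rw [mul_zero] at h2
  have h3 := h2.eventually (gt_mem_nhds (show (0 : ℝ) < 1 / 4 by norm_num))
  rw [Filter.eventually_atTop] at h3
  obtain ⟨s0, hs0⟩ := h3
  refine ⟨s0, fun s hs => ?_⟩
  have := hs0 s hs
  rw [pow_succ γ s] at this
  calc A * ((s + 1 : ℕ) : ℝ) ^ d * γ ^ s
      = A * γ⁻¹ * (((s + 1 : ℕ) : ℝ) ^ d * (γ ^ s * γ)) := by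
        field_simp
    _ < 1 / 4 := this

/-- Amplifiers with three blocks per contact exist if the weight bound in the bulk holds. -/
theorem ampsExistK_of {p q : ℕ} (hq : 0 < q) (hqp : q ≤ p) {r : ℝ} (hr : r ≤ 1 / 500)
    (hB : Ref.BulkBound p q r) : AmpsExistK p q := by
  obtain ⟨C, γ, d, hC, hγ0, hγ1, hB⟩ := hB
  intro ε hε k hk
  obtain ⟨M, hM⟩ := exists_nat_gt (2 * q / ε)
  have hq0 : (0 : ℝ) < q := by exact_mod_cast hq
  have hM0 : (0 : ℝ) < M := lt_trans (by positivity) hM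
  have hMn : 0 < M := by exact_mod_cast hM0
  have hMε : 2 * q < ε * M := by
    rw [div_lt_iff₀ hε] at hM
    linarith only [hM]
  obtain ⟨s1, hs1⟩ := decay3 (2 ^ k * (9 * C) * (M : ℝ) ^ (d + 2)) γ hγ0 hγ1 (d + 2)
  obtain ⟨s2, hs2⟩ := decay3 (9000 * (M : ℝ) ^ 2) (1 / 1000) (by norm_num) (by norm_num) 2
  obtain ⟨L, hL⟩ := exists_nat_gt (12 / ε)
  refine ⟨M * (s1 + s2 + 3) + L + 2, fun t ht => ?_⟩
  have hkt1 : t ≤ k * t := Nat.le_mul_of_pos_left t hk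
  have hkt : 0 < k * t := by omega
  have hkt2 : 2 ≤ k * t := by omega
  set K := k * t with hK
  set s := K / M with hs
  have hs3 : s1 + s2 + 3 ≤ s := by
    rw [hs, Nat.le_div_iff_mul_le hMn]
    calc (s1 + s2 + 3) * M = M * (s1 + s2 + 3) := by ring
      _ ≤ K := by omega
  have hs4 : K < M * (s + 1) := by
    rw [hs]
    exact Nat.lt_mul_div_succ K hMn
  have hs5 : (s : ℝ) * M ≤ K := by
    have : s * M ≤ K := Nat.div_mul_le_self K M
    exact_mod_cast this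
  have hKL : 12 / ε < (K : ℝ) := by
    refine hL.trans_le ?_
    have : L ≤ K := by omega
    exact_mod_cast this
  have hKε : 12 < ε * K := by
    rw [div_lt_iff₀ hε] at hKL
    linarith only [hKL]
  have hK0 : (0 : ℝ) < K := by exact_mod_cast hkt
  have hK1 : (((K + 1 : ℕ)) : ℝ) ≤ (M : ℝ) * ((s + 1 : ℕ) : ℝ) := by
    have : K + 1 ≤ M * (s + 1) := by omega
    exact_mod_cast this
  have hK3 : ((K * 3 : ℕ) : ℝ) + 1 ≤ 3 * ((M : ℝ) * ((s + 1 : ℕ) : ℝ)) := by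
    have h1 : ((K * 3 : ℕ) : ℝ) + 1 ≤ 3 * ((K + 1 : ℕ) : ℝ) := by
      push_cast
      linarith only []
    exact h1.trans (mul_le_mul_of_nonneg_left hK1 (by norm_num))
  have hsl : ((q * s : ℕ) : ℝ) ≤ ε * (k * t) := by
    have h0 : (k : ℝ) * t = K := by rw [hK]; push_cast; ring
    rw [h0]
    push_cast
    have h2 : (s : ℝ) * (2 * q) ≤ s * (ε * M) := by
      apply mul_le_mul_of_nonneg_left hMε.le
      positivity
    have h3 : ε * (s * M) ≤ ε * K := mul_le_mul_of_nonneg_left hs5 hε.le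
    have h4 : (0 : ℝ) ≤ q * s := by positivity
    linarith only [h2, h3, h4]
  have hsmall : 2 ^ k * ((((K * 3 : ℕ) : ℝ) + 1) ^ 2 * (C * γ ^ s * ((K + 1 : ℕ) : ℝ) ^ d))
      + (((K * 3 : ℕ) : ℝ) + 1) * ((1 / 1000) ^ (s - 1) * (((K * 3 : ℕ) : ℝ) + 1))
      + 3 / (ε * (K : ℕ)) < 1 := by
    have h1 := hs1 s (by omega)
    have h2 := hs2 s (by omega)
    have h3 : 3 / (ε * (K : ℕ)) < (1 / 4 : ℝ) := by
      rw [div_lt_iff₀ (by positivity)]
      linarith only [hKε]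
    have h4 : 2 ^ k * ((((K * 3 : ℕ) : ℝ) + 1) ^ 2 * (C * γ ^ s * ((K + 1 : ℕ) : ℝ) ^ d))
        ≤ 2 ^ k * (9 * C) * (M : ℝ) ^ (d + 2) * ((s + 1 : ℕ) : ℝ) ^ (d + 2) * γ ^ s := by
      calc 2 ^ k * ((((K * 3 : ℕ) : ℝ) + 1) ^ 2 * (C * γ ^ s * ((K + 1 : ℕ) : ℝ) ^ d))
          ≤ 2 ^ k * ((3 * ((M : ℝ) * ((s + 1 : ℕ) : ℝ))) ^ 2
            * (C * γ ^ s * ((M : ℝ) * ((s + 1 : ℕ) : ℝ)) ^ d)) := by
            (clear * - hK3 hK1 hC hγ0; gcongr)
        _ = _ := by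
            (clear * -; ring)
    have h5 : (((K * 3 : ℕ) : ℝ) + 1) * ((1 / 1000) ^ (s - 1) * (((K * 3 : ℕ) : ℝ) + 1))
        ≤ 9000 * (M : ℝ) ^ 2 * ((s + 1 : ℕ) : ℝ) ^ 2 * (1 / 1000) ^ s := by
      obtain ⟨u, hu⟩ : ∃ u, s = u + 1 := ⟨s - 1, by omega⟩
      have h6 : ((1 : ℝ) / 1000) ^ (s - 1) = 1000 * (1 / 1000) ^ s := by
        rw [hu, Nat.add_sub_cancel, pow_succ]
        ring
      rw [h6]
      calc (((K * 3 : ℕ) : ℝ) + 1) * (1000 * (1 / 1000) ^ s * (((K * 3 : ℕ) : ℝ) + 1))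
          ≤ (3 * ((M : ℝ) * ((s + 1 : ℕ) : ℝ))) * (1000 * (1 / 1000) ^ s
            * (3 * ((M : ℝ) * ((s + 1 : ℕ) : ℝ)))) := by
            (clear * - hK3; gcongr)
        _ = _ := by
            (clear * -; ring)
    linarith only [h1, h2, h3, h4, h5]
  obtain ⟨σ, τ, g1, g2, g3⟩ := exists_perms3 hC hγ0 hB hkt (s := s) (s' := s - 1) hkt2 (by omega)
    ε hε hsmall
  refine ⟨⟨mkE0 σ, Ref.mkE13 σ τ, ?_, coinc_of3 σ τ g3⟩⟩
  refine Ref.expandsK_of hqp hkt σ τ g1 (fun x g hd hv => ?_) hsl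
  refine plain_of hq hqp g2 x g (hd.trans hr) ?_
  have : s - 1 + 1 = s := by omega
  rw [this]
  exact hv

end Vale.Agent.P333.R2.H99
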